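import Vale.Agent.P309.Num

open MeasureTheory ProbabilityTheory Set Metric
open scoped RealInnerProductSpace ENNReal

namespace Vale.Agent.Results.P309.MemoryLB

/-- A learner in dimension `d` with state set `Fin N` and horizon `T`. All its randomness comes
from a seed in `Ω`, which every rule may read. The Boolean components are stopping decisions. -/
structure Learner (d N T : ℕ) (Ω : Type) [MeasurableSpace Ω] where
  /-- initial state, and whether to stop before the first sample -/
  init : Ω → Fin N × Bool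
  /-- new state and stopping decision from index, current state, seed and current pair -/
  step : Fin T → Fin N → Ω × (EuclideanSpace ℝ (Fin d) × ℝ) → Fin N × Bool
  /-- output from the stopping index (if any), the final state and the seed -/
  out : Option (Fin (T + 1)) → Fin N → Ω → sphere (0 : EuclideanSpace ℝ (Fin d)) 1
  init_meas : Measurable init
  step_meas : ∀ t w, Measurable (step t w)
  out_meas : ∀ o w, Measurable (out o w)

/-- Final state, and the number of samples read if the learner stopped, on the stream `p`. -/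
def Learner.run {d N T : ℕ} {Ω : Type} [MeasurableSpace Ω] (L : Learner d N T Ω) (ω : Ω)
    (p : Fin T → EuclideanSpace ℝ (Fin d) × ℝ) : Fin N × Option (Fin (T + 1)) :=
  Fin.foldl T
    (fun c t => if c.2 = none then
        ((L.step t c.1 (ω, p t)).1, if (L.step t c.1 (ω, p t)).2 then some t.succ else none)
      else c)
    ((L.init ω).1, if (L.init ω).2 then some 0 else none)

/-- The uniform probability measure on the unit sphere. -/
noncomputable def uniformSphere (d : ℕ) : Measure (sphere (0 : EuclideanSpace ℝ (Fin d)) 1) :=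
  ((volume : Measure (EuclideanSpace ℝ (Fin d))).toSphere univ)⁻¹ •
    (volume : Measure (EuclideanSpace ℝ (Fin d))).toSphere

/-- Probability of angular error at most `ε`: seed, uniform signal and Gaussian rows are
independent, labels are exact. -/
noncomputable def Learner.success {d N T : ℕ} {Ω : Type} [MeasurableSpace Ω] (L : Learner d N T Ω)
    (P : Measure Ω) (ε : ℝ) : ℝ≥0∞ :=
  (P.prod ((uniformSphere d).prod
    (Measure.pi fun _ : Fin T => stdGaussian (EuclideanSpace ℝ (Fin d)))))
    {q | Real.arccos ⟪(L.out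
        (L.run q.1 fun t => (q.2.2 t, ⟪q.2.2 t, (q.2.1 : EuclideanSpace ℝ (Fin d))⟫)).2
        (L.run q.1 fun t => (q.2.2 t, ⟪q.2.2 t, (q.2.1 : EuclideanSpace ℝ (Fin d))⟫)).1
        q.1 : EuclideanSpace ℝ (Fin d)), (q.2.1 : EuclideanSpace ℝ (Fin d))⟫ ≤ ε}

open Vale.Agent.P309 in
theorem result (C : ℝ) : ∃ c > (0 : ℝ), ∃ ε₀ > (0 : ℝ), ∃ d₀ : ℕ, ∀ d ≥ d₀, ∀ ε : ℝ,
    0 < ε → ε ≤ ε₀ → ∀ M N T : ℕ, (M : ℝ) ≤ C * d ^ 2 → N ≤ 2 ^ M →
      ∀ (Ω : Type) [MeasurableSpace Ω] (P : Measure Ω) [IsProbabilityMeasure P]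
        (L : Learner d N T Ω), 2 / 3 ≤ L.success P ε → c * d * Real.log (1 / ε) ≤ T := by
  obtain ⟨K, b0, d0, hK, hd0, h⟩ := succ_half ⌈C⌉₊
  refine ⟨1 / (2 * K), by positivity, 2⁻¹ ^ (b0 + 1), by positivity, d0,
    fun d hd ε hε hε0 M N T hM hN Ω _ P _ L hs => ?_⟩
  obtain ⟨bs, h1, h2⟩ := exists_nat_pow_near_of_lt_one (y := (2⁻¹ : ℝ)) hε
    (hε0.trans (pow_le_one₀ (by norm_num) (by norm_num))) (by norm_num) (by norm_num)
  have hbs : b0 + 1 < bs + 1 :=
    (pow_lt_pow_iff_right_of_lt_one₀ (by norm_num) (by norm_num)).1 (h1.trans_le hε0)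
  by_contra hT
  rw [not_le] at hT
  have hlog : Real.log (1 / ε) ≤ 2 * bs := by
    have h3 : 1 / ε ≤ 2 ^ (bs + 1) := by
      rw [one_div, inv_le_comm₀ hε (by positivity), ← inv_pow]; exact h1.le
    have h4 := Real.log_le_log (by positivity) h3
    have h5 : Real.log 2 ≤ 1 := by have := Real.log_two_lt_d9; linarith
    have h6 : (1 : ℝ) ≤ bs := by exact_mod_cast (by omega : 1 ≤ bs)
    rw [Real.log_pow] at h4
    push_cast at h4
    nlinarith
  have hTK : T * K ≤ d * bs := by
    have hK' : (0 : ℝ) < K := by positivity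
    have h3 : (T : ℝ) ≤ 1 / (2 * K) * d * (2 * bs) :=
      hT.le.trans (mul_le_mul_of_nonneg_left hlog (by positivity))
    have h4 : (T : ℝ) * K ≤ d * bs := by
      calc _ ≤ 1 / (2 * K) * d * (2 * bs) * (K : ℝ) := mul_le_mul_of_nonneg_right h3 hK'.le
        _ = _ := by field_simp
    exact_mod_cast h4
  have hN' : N ≤ 2 ^ (⌈C⌉₊ * d ^ 2) := by
    refine hN.trans (Nat.pow_le_pow_right two_pos ?_)
    have : (M : ℝ) ≤ ⌈C⌉₊ * d ^ 2 :=
      hM.trans (mul_le_mul_of_nonneg_right (Nat.le_ceil C) (by positivity))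
    exact_mod_cast this
  let _ : MeasurableSpace (Option (Fin (T + 1))) := ⊤
  have : DiscreteMeasurableSpace (Option (Fin (T + 1))) := ⟨fun _ => trivial⟩
  have := unif_prob (d := d) (by omega)
  let upd : Fin N × Option (Fin (T + 1)) → Fin T → Ω × (Ed d × ℝ) → Fin N × Option (Fin (T + 1)) :=
    fun c t y => if c.2 = none then
      ((L.step t c.1 y).1, if (L.step t c.1 y).2 then some t.succ else none) else c
  have hupd : ∀ c t, Measurable (upd c t) := by
    intro c t
    simp only [upd]
    split_ifs
    · exact (measurable_of_countable fun r : Fin N × Bool =>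
        (r.1, if r.2 then some t.succ else none)).comp (L.step_meas t c.1)
    · exact measurable_const
  let w0 : Ω → Fin N × Option (Fin (T + 1)) :=
    fun ω => ((L.init ω).1, if (L.init ω).2 then some 0 else none)
  have hw0 : Measurable w0 := (measurable_of_countable fun r : Fin N × Bool =>
    (r.1, if r.2 then some (0 : Fin (T + 1)) else none)).comp L.init_meas
  have hobs : Measurable fun q : Ω × sphere (0 : Ed d) 1 × (Fin T → Ed d) =>
      obs (q.2.1 : Ed d) q.2.2 := continuous_obs.measurable.comp (by fun_prop :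
        Measurable fun q : Ω × sphere (0 : Ed d) 1 × (Fin T → Ed d) => ((q.2.1 : Ed d), q.2.2))
  have hrun : Measurable fun q : Ω × sphere (0 : Ed d) 1 × (Fin T → Ed d) =>
      L.run q.1 (obs (q.2.1 : Ed d) q.2.2) :=
    measurable_foldl T (fun c t (q : Ω × sphere (0 : Ed d) 1 × (Fin T → Ed d)) =>
        upd c t (q.1, obs (q.2.1 : Ed d) q.2.2 t))
      (fun c t => (hupd c t).comp (measurable_fst.prodMk ((measurable_pi_apply t).comp hobs)))
      _ (hw0.comp measurable_fst)
  have hout : Measurable fun y : (Fin N × Option (Fin (T + 1))) × Ω =>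
      (L.out y.1.2 y.1.1 y.2 : Ed d) :=
    measurable_from_prod_countable_right fun c => measurable_subtype_coe.comp (L.out_meas c.2 c.1)
  let S : Set (Ω × sphere (0 : Ed d) 1 × (Fin T → Ed d)) := {q | dist (q.2.1 : Ed d)
    (L.out (L.run q.1 (obs (q.2.1 : Ed d) q.2.2)).2 (L.run q.1 (obs (q.2.1 : Ed d) q.2.2)).1 q.1 :
      Ed d) ≤ 2⁻¹ ^ bs}
  have hS : MeasurableSet S := measurableSet_le
    (Measurable.dist (by fun_prop) (hout.comp (hrun.prodMk measurable_fst))) measurable_const
  have h7 : L.success P ε ≤ (P.prod ((unif d).prod (rows (Ed d) T))) S :=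
    measure_mono fun q hq => (chord_le (by simp) (by simp)).trans (le_trans hq h2)
  have h8 : (P.prod ((unif d).prod (rows (Ed d) T))) S ≤ 2⁻¹ := by
    rw [Measure.prod_apply hS]
    refine (lintegral_mono (g := fun _ => 2⁻¹) fun ω => ?_).trans (by simp)
    have h9 := h d hd bs (by omega) T hTK (Fin N × Option (Fin (T + 1)))
      (by simpa using Nat.mul_le_mul_right (T + 1 + 1) hN')
      (fun t c p => if ht : t < T then upd c ⟨t, ht⟩ (ω, p) else c)
      (fun t c => by
        split_ifs
        · exact (hupd c _).comp measurable_prodMk_left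
        · exact measurable_const)
      (fun t ht c p => dif_neg (by omega)) (fun c => L.out c.2 c.1 ω) (w0 ω)
    refine le_trans (le_of_eq ?_) h9
    simp only
    rw [Measure.prod_apply (measurable_prodMk_left hS), succ]
    congr 1; funext s; congr 1; ext X
    have e : runF (fun t c p => if ht : t < T then upd c ⟨t, ht⟩ (ω, p) else c) 0 (w0 ω)
        (obs (s : Ed d) X) = L.run ω (obs (s : Ed d) X) := by
      simp only [runF, Learner.run, zero_add, Fin.is_lt, dite_true]
      rfl
    rw [mem_setOf_eq, e]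
    rfl
  have h10 := hs.trans (h7.trans h8)
  rw [ENNReal.div_le_iff (by norm_num) (by norm_num), mul_comm, ← div_eq_mul_inv,
    ENNReal.le_div_iff_mul_le (by norm_num) (by norm_num)] at h10
  norm_num at h10

end Vale.Agent.Results.P309.MemoryLB
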